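import Vale.Agent.P192.Path

namespace P192

open Classical

universe u
variable {ι : Type*} {G : Type*} [Group G]

theorem exists_path {X : Type*} [MulAction G X] (φ : FreeGroup ι →* G) (u : X)
    (l0 : ι × Bool) (w : List (ι × Bool)) :
    ∃ (T : ℕ) (γ : ℕ → X) (lam : ℕ → ι × Bool), γ 0 = u ∧ γ T = φ (FreeGroup.mk w) • u ∧
      ∀ t < T, γ (t + 1) = gen φ (lam t) • γ t := by
  induction w with
  | nil =>
    exact ⟨0, fun _ => u, fun _ => l0, rfl, by rw [mk_nil, one_smul], by simp⟩
  | cons l w ih =>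
    obtain ⟨T, γ, lam, h0, hT, hs⟩ := ih
    refine ⟨T + 1, fun k => if k ≤ T then γ k else gen φ l • γ T,
      fun k => if k < T then lam k else l, by simp [h0], by simp [mk_cons, mul_smul, hT], ?_⟩
    intro t ht
    by_cases h : t < T
    · simp only [if_pos h, if_pos h.le, if_pos (Nat.succ_le_of_lt h)]
      exact hs t h
    · have : t = T := by omega
      subst this
      simp

theorem exists_inj_path {X : Type*} [MulAction G X] (φ : FreeGroup ι →* G) (u : X)
    (l0 : ι × Bool) (w : List (ι × Bool)) :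
    ∃ (T : ℕ) (γ : ℕ → X) (lam : ℕ → ι × Bool), γ 0 = u ∧ γ T = φ (FreeGroup.mk w) • u ∧
      (∀ t < T, γ (t + 1) = gen φ (lam t) • γ t) ∧ ∀ s ≤ T, ∀ t ≤ T, γ s = γ t → s = t := by
  have hex := exists_path φ u l0 w
  obtain ⟨γ, lam, h0, hT, hs⟩ := Nat.find_spec hex
  set T := Nat.find hex with hTdef
  refine ⟨T, γ, lam, h0, hT, hs, ?_⟩
  have key : ∀ s t, s < t → t ≤ T → γ s ≠ γ t := by
    intro s t hst htT heq
    obtain ⟨d, rfl⟩ : ∃ d, t = s + d + 1 := ⟨t - s - 1, by omega⟩
    refine Nat.find_min hex (m := T - (d + 1)) (by omega) ?_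
    refine ⟨fun k => if k ≤ s then γ k else γ (k + d + 1),
      fun k => if k < s then lam k else lam (k + d + 1), by simp [h0], ?_, ?_⟩
    · simp only
      split_ifs with h
      · have h1 : T = s + d + 1 := by omega
        have h2 : T - (d + 1) = s := by omega
        rw [h2, heq, ← hT, h1]
      · rw [← hT]; congr 1; omega
    · intro k hk
      by_cases h1 : k < s
      · simp only [if_pos h1, if_pos h1.le, if_pos (Nat.succ_le_of_lt h1)]
        exact hs k (by omega)
      · have h2 : ¬ (k + 1 ≤ s) := by omega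
        simp only [if_neg h1, if_neg h2]
        have h3 := hs (k + d + 1) (by omega)
        rw [show k + 1 + d + 1 = k + d + 1 + 1 by ring, h3]
        split_ifs with h4
        · have : k = s := by omega
          subst this
          rw [heq]
        · rfl
  intro s hs' t ht' heq
  rcases lt_trichotomy s t with h | h | h
  · exact absurd heq (key s t h ht')
  · exact h
  · exact absurd heq.symm (key t s h hs')

theorem exists_enum {X : Type*} (s : Set X) (K : ℕ) (hK : s.encard ≤ K) (hne : s.Nonempty) :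
    ∃ b : Fin K → X, (∀ t, b t ∈ s) ∧ ∀ x ∈ s, ∃ t, b t = x := by
  have hfin := Set.finite_of_encard_le_coe hK
  obtain ⟨x0, hx0⟩ := hne
  haveI : Finite s := hfin
  have hcard : Nat.card s ≤ Nat.card (Fin K) := by
    rw [Nat.card_eq_fintype_card (α := Fin K), Fintype.card_fin, Nat.card_coe_set_eq]
    rw [← hfin.cast_ncard_eq] at hK
    exact_mod_cast hK
  haveI := Fintype.ofFinite s
  rw [Nat.card_eq_fintype_card, Nat.card_eq_fintype_card] at hcard
  obtain ⟨e⟩ := Function.Embedding.nonempty_of_card_le hcard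
  haveI : Nonempty s := ⟨⟨x0, hx0⟩⟩
  refine ⟨fun t => (Function.invFun e t : s), fun t => (Function.invFun e t).2, fun x hx => ?_⟩
  exact ⟨e ⟨x, hx⟩, congrArg Subtype.val (Function.leftInverse_invFun e.injective ⟨x, hx⟩)⟩

/-- Words of bounded length. -/
abbrev Wd (ι : Type*) (R : ℕ) := {w : List (ι × Bool) // w.length ≤ R}

theorem wd_finite [Finite ι] (R : ℕ) : Finite (Wd ι R) :=
  (List.finite_length_le (ι × Bool) R).to_subtype

/-- Local types of a cut. -/
abbrev Ty (ι : Type*) (R K : ℕ) :=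
  (Wd ι R × Fin K → Wd ι R × Fin K → Prop) × (Wd ι R × Fin K → Prop) ×
    (Wd ι R × Fin K → Option (ι × Bool) × Option (ι × Bool)) × Fin 2

theorem chain [Finite ι] [DecidableEq ι] (φ : FreeGroup ι →* G) (hφ : Function.Surjective φ)
    (S : Set (FreeGroup ι)) (hS : Subgroup.normalClosure S = φ.ker) (hSf : S.Finite)
    (hper : ∀ g : G, IsOfFinOrder g) (K : ℕ) :
    ∃ N R : ℕ, ∀ (X : Type u) [MulAction G X] (A Bd : ℕ → Set X),
      (∀ i ≤ N, A i ⊆ A (i + 1)) → (∀ i ≤ N, (Bd i).encard ≤ K) →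
      (∀ i ≤ N, ∀ x ∈ A i, ∀ l, gen φ l • x ∉ A i → x ∈ Bd i) →
      (∀ i ≤ N, ∀ b ∈ Bd i, ∀ w : List (ι × Bool), w.length ≤ R →
        φ (FreeGroup.mk w) • b ∈ A (i + 1)) →
      (∀ i < N, ∀ b ∈ Bd (i + 1), ∀ w : List (ι × Bool), w.length ≤ R →
        φ (FreeGroup.mk w) • b ∉ A i) →
      ∀ u ∈ A 0, ∀ g : G, g • u ∈ A (N + 1) := by
  obtain ⟨R0, hR0⟩ := (hSf.image fun s => s.toWord.length).bddAbove
  set R := max R0 2 with hRdef
  have hR : 2 ≤ R := le_max_right _ _
  have hlen : ∀ s ∈ S, s.toWord.length ≤ R := fun s hs =>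
    (hR0 (Set.mem_image_of_mem _ hs)).trans (le_max_left _ _)
  haveI : Finite (Wd ι R) := wd_finite R
  haveI : Fintype (Ty ι R K) := Fintype.ofFinite _
  refine ⟨Fintype.card (Ty ι R K), R, ?_⟩
  set N := Fintype.card (Ty ι R K) with hN
  intro X _ A Bd H1 HK H2 H3 H4 u hu g
  by_contra hv
  have hmono : ∀ i j, i ≤ j → j ≤ N + 1 → A i ⊆ A j := by
    intro i j hij hj
    induction j, hij using Nat.le_induction with
    | base => exact subset_rfl
    | succ j hij ih => exact (ih (by omega)).trans (H1 j (by omega))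
  obtain ⟨f, rfl⟩ := hφ g
  rw [← FreeGroup.mk_toWord (x := f)] at hv
  have hne : f.toWord ≠ [] := by
    intro h
    rw [h, mk_nil, one_smul] at hv
    exact hv (hmono 0 _ (by omega) le_rfl hu)
  obtain ⟨T, γ, lam, h0, hT, hstep, hinj⟩ :=
    exists_inj_path φ u (f.toWord.head hne) f.toWord
  rw [← hT] at hv
  rw [← h0] at hu
  have hBd : ∀ i ≤ N, (Bd i).Nonempty := by
    intro i hi
    have h1 := exits_sub γ T (A i) (hmono 0 i (by omega) (by omega) hu)
      (fun h => hv (hmono i _ (by omega) le_rfl h))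
    have h2 : 0 ≤ ∑ t ∈ Finset.range T,
        (if γ t ∉ A i ∧ γ (t + 1) ∈ A i then (1 : ℤ) else 0) :=
      Finset.sum_nonneg fun t _ => by split_ifs <;> simp
    have h3 : 0 < exits γ T (A i) := by omega
    obtain ⟨t, ht⟩ := Finset.card_pos.1 h3
    obtain ⟨ht1, ht2, ht3⟩ := Finset.mem_filter.1 ht
    exact ⟨γ t, H2 i hi _ ht2 (lam t) (by rw [← hstep t (Finset.mem_range.1 ht1)]; exact ht3)⟩
  have hb : ∀ i : Fin (N + 1), ∃ b : Fin K → X, (∀ t, b t ∈ Bd i) ∧ ∀ x ∈ Bd i, ∃ t, b t = x :=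
    fun i => exists_enum _ K (HK i (by omega)) (hBd i (by omega))
  choose b hb1 hb2 using hb
  let m : X → Option (ι × Bool) := fun x =>
    if h : ∃ t < T, x = γ t then some (lam h.choose) else none
  let pm : X → Option (ι × Bool) := fun x =>
    if h : ∃ t < T, x = γ (t + 1) then some (lam h.choose) else none
  have hm : ∀ t < T, m (γ t) = some (lam t) := by
    intro t ht
    have h : ∃ s < T, γ t = γ s := ⟨t, ht, rfl⟩
    simp only [m, dif_pos h]
    rw [← hinj t ht.le _ h.choose_spec.1.le h.choose_spec.2]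
  have hm' : ∀ x l, m x = some l → ∃ t < T, x = γ t := by
    intro x l h
    by_contra h1
    simp only [m, dif_neg h1] at h
    exact absurd h (by simp)
  have hpm : ∀ t < T, pm (γ (t + 1)) = some (lam t) := by
    intro t ht
    have h : ∃ s < T, γ (t + 1) = γ (s + 1) := ⟨t, ht, rfl⟩
    simp only [pm, dif_pos h]
    have := hinj (t + 1) ht _ h.choose_spec.1 h.choose_spec.2
    rw [← Nat.succ_injective this]
  let pt : Fin (N + 1) → Wd ι R × Fin K → X := fun i a => φ (FreeGroup.mk a.1.1) • b i a.2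
  let ty : Fin (N + 1) → Ty ι R K := fun i =>
    (fun a a' => pt i a = pt i a', fun a => pt i a ∈ A i, fun a => (m (pt i a), pm (pt i a)),
      ⟨exits γ T (A i) % 2, Nat.mod_lt _ (by norm_num)⟩)
  have hpig : ∃ i j : Fin (N + 1), i < j ∧ ty i = ty j := by
    obtain ⟨i, j, hij, h⟩ := Fintype.exists_ne_map_eq_of_card_lt ty (by simp [hN])
    rcases lt_or_gt_of_ne hij with h1 | h1
    · exact ⟨i, j, h1, h⟩
    · exact ⟨j, i, h1, h.symm⟩
  obtain ⟨i, j, hij, hty⟩ := hpig
  have hij' : (i : ℕ) < j := hij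
  have hjN : (j : ℕ) ≤ N := by omega
  have e1 : ∀ a a', pt i a = pt i a' ↔ pt j a = pt j a' := fun a a' =>
    iff_of_eq (congrFun (congrFun (congrArg Prod.fst hty) a) a')
  have e2 : ∀ a, pt i a ∈ A i ↔ pt j a ∈ A j := fun a =>
    iff_of_eq (congrFun (congrArg (fun z => z.2.1) hty) a)
  have e3 : ∀ a, (m (pt i a), pm (pt i a)) = (m (pt j a), pm (pt j a)) := fun a =>
    congrFun (congrArg (fun z => z.2.2.1) hty) a
  have e4 : exits γ T (A i) % 2 = exits γ T (A j) % 2 :=
    congrArg Fin.val (congrArg (fun z => z.2.2.2) hty)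
  let θ : X → X := fun y => if h : ∃ a, pt i a = y then pt j h.choose else y
  let η : X → X := fun y => if h : ∃ a, pt j a = y then pt i h.choose else y
  have hθ : ∀ a, θ (pt i a) = pt j a := by
    intro a
    have h : ∃ a', pt i a' = pt i a := ⟨a, rfl⟩
    simp only [θ, dif_pos h]
    exact (e1 _ _).1 h.choose_spec
  have hη : ∀ a, η (pt j a) = pt i a := by
    intro a
    have h : ∃ a', pt j a' = pt j a := ⟨a, rfl⟩
    simp only [η, dif_pos h]
    exact (e1 _ _).2 h.choose_spec
  let Nb : Fin (N + 1) → ℕ → Set X := fun i k =>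
    {y | ∃ (w : List (ι × Bool)) (t : Fin K), w.length ≤ k ∧ y = φ (FreeGroup.mk w) • b i t}
  have hNg : ∀ i k, ∀ y ∈ Nb i k, ∀ l, gen φ l • y ∈ Nb i (k + 1) := by
    rintro i k y ⟨w, t, hw, rfl⟩ l
    exact ⟨l :: w, t, by simpa using hw, by rw [mk_cons, mul_smul]⟩
  have hN0 : ∀ (i : Fin (N + 1)) k, ∀ y ∈ A i, ∀ l, gen φ l • y ∉ A i → y ∈ Nb i k := by
    intro i k y hy l hl
    obtain ⟨t, ht⟩ := hb2 i y (H2 i (by omega) y hy l hl)
    exact ⟨[], t, by simp, by rw [mk_nil, one_smul, ht]⟩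
  let D : Glue φ X R :=
    { P := A i
      Q := A j
      U := Nb i
      V := Nb j
      θ := θ
      η := η
      PQ := hmono i j hij'.le (by omega)
      θV := by
        rintro k hk y ⟨w, t, hw, rfl⟩
        exact ⟨w, t, hw, hθ (⟨w, hw.trans hk⟩, t)⟩
      ηU := by
        rintro k hk y ⟨w, t, hw, rfl⟩
        exact ⟨w, t, hw, hη (⟨w, hw.trans hk⟩, t)⟩
      ηθ := by
        rintro k hk y ⟨w, t, hw, rfl⟩
        exact (congrArg η (hθ (⟨w, hw.trans hk⟩, t))).trans (hη _)
      θη := by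
        rintro k hk y ⟨w, t, hw, rfl⟩
        exact (congrArg θ (hη (⟨w, hw.trans hk⟩, t))).trans (hθ _)
      θg := by
        rintro k hk y ⟨w, t, hw, rfl⟩ l
        have h1 := hθ (⟨l :: w, by simp only [List.length_cons]; omega⟩, t)
        have h2 := hθ (⟨w, by omega⟩, t)
        simp only [pt, mk_cons, mul_smul] at h1 h2
        rw [h1, h2]
      θQ := by
        rintro k hk y ⟨w, t, hw, rfl⟩
        have h2 := hθ (⟨w, hw.trans hk⟩, t)
        have h3 := e2 (⟨w, hw.trans hk⟩, t)
        simp only [pt] at h2 h3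
        rw [h2, h3]
      UQ := by
        rintro k hk y ⟨w, t, hw, rfl⟩
        exact hmono (i + 1) j hij' (by omega) (H3 i (by omega) _ (hb1 i t) w (hw.trans hk))
      VP := by
        rintro k hk y ⟨w, t, hw, rfl⟩ hy
        obtain ⟨j', hj'⟩ : ∃ j', (j : ℕ) = j' + 1 := ⟨j - 1, by omega⟩
        refine H4 j' (by omega) _ (hj' ▸ hb1 j t) w (hw.trans hk) ?_
        exact hmono i j' (by omega) (by omega) hy
      Ug := hNg i
      Vg := hNg j
      U0 := hN0 i
      V0 := hN0 j }
  refine D.no_path hR S hS hlen hper γ lam T hstep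
    (fun s hs t ht => hinj s hs.le t ht.le) (hmono 0 i (by omega) (by omega) hu)
    (fun h => hv (hmono j _ (by omega) le_rfl h)) ?_ m pm hm hm' hpm ?_ e4
  · rintro ⟨w, t, hw, h⟩
    apply hv
    rw [h]
    exact hmono (j + 1) _ (by omega) le_rfl (H3 j hjN _ (hb1 j t) w (by omega))
  · rintro y ⟨w, t, hw, rfl⟩
    have h2 := hθ (⟨w, by omega⟩, t)
    have h3 := e3 (⟨w, by omega⟩, t)
    simp only [pt] at h2 h3
    change m (θ _) = _ ∧ pm (θ _) = _
    rw [h2]
    exact ⟨(congrArg Prod.fst h3).symm, (congrArg Prod.snd h3).symm⟩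

theorem mk_invRev_smul {X : Type*} [MulAction G X] (φ : FreeGroup ι →* G) (w : List (ι × Bool))
    (x : X) : φ (FreeGroup.mk (FreeGroup.invRev w)) • φ (FreeGroup.mk w) • x = x := by
  rw [← FreeGroup.inv_mk, map_inv, inv_smul_smul]

theorem chain' [Finite ι] [DecidableEq ι] (φ : FreeGroup ι →* G) (hφ : Function.Surjective φ)
    (S : Set (FreeGroup ι)) (hS : Subgroup.normalClosure S = φ.ker) (hSf : S.Finite)
    (hper : ∀ g : G, IsOfFinOrder g) (K : ℕ) :
    ∃ N R : ℕ, ∀ (X : Type u) [MulAction G X] (A : ℕ → Set X),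
      (∀ i ≤ N, {x ∈ A i | ∃ l, gen φ l • x ∉ A i}.encard ≤ K) →
      (∀ i ≤ N, ∀ x ∈ A i, ∀ w : List (ι × Bool), w.length ≤ R →
        φ (FreeGroup.mk w) • x ∈ A (i + 1)) →
      ∀ u ∈ A 0, ∀ g : G, g • u ∈ A (N + 1) := by
  obtain ⟨N, R, h⟩ := chain.{u} φ hφ S hS hSf hper K
  refine ⟨N, R + 1, fun X _ A H1 H2 => h X A (fun i => {x ∈ A i | ∃ l, gen φ l • x ∉ A i})
    ?_ H1 (fun i _ x hx l hl => ⟨hx, l, hl⟩)
    (fun i hi b hb w hw => H2 i hi b hb.1 w (by omega)) ?_⟩
  · intro i hi x hx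
    have := H2 i hi x hx [] (by simp)
    rwa [mk_nil, one_smul] at this
  · rintro i hi b ⟨-, l, hl⟩ w hw hmem
    apply hl
    have := H2 i hi.le _ hmem (l :: FreeGroup.invRev w) (by simpa using hw)
    rwa [mk_cons, mul_smul, mk_invRev_smul] at this

/-- A finitely presented group is finitely presented on any finite generating family. -/
theorem pres_of_gen [hG : Group.IsFinitelyPresented G] [Finite ι] (φ : FreeGroup ι →* G)
    (hφ : Function.Surjective φ) :
    ∃ S : Set (FreeGroup ι), S.Finite ∧ Subgroup.normalClosure S = φ.ker := by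
  obtain ⟨n, ψ, hψ, S, hSf, hS⟩ := hG.out
  choose a ha using fun i : Fin n => hφ (ψ (FreeGroup.of i))
  choose b hb using fun i : ι => hψ (φ (FreeGroup.of i))
  let α : FreeGroup (Fin n) →* FreeGroup ι := FreeGroup.lift a
  let β : FreeGroup ι →* FreeGroup (Fin n) := FreeGroup.lift b
  have hα : φ.comp α = ψ := FreeGroup.ext_hom _ _ fun i => by simp [α, ha]
  have hβ : ψ.comp β = φ := FreeGroup.ext_hom _ _ fun i => by simp [β, hb]
  have hα' : ∀ x, φ (α x) = ψ x := fun x => DFunLike.congr_fun hα x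
  have hβ' : ∀ x, ψ (β x) = φ x := fun x => DFunLike.congr_fun hβ x
  let S' : Set (FreeGroup ι) :=
    α '' S ∪ Set.range fun i : ι => (FreeGroup.of i)⁻¹ * α (β (FreeGroup.of i))
  refine ⟨S', (hSf.image _).union (Set.finite_range _), le_antisymm ?_ ?_⟩
  · apply Subgroup.normalClosure_le_normal
    rintro x (⟨y, hy, rfl⟩ | ⟨i, rfl⟩)
    · have : y ∈ ψ.ker := hS ▸ Subgroup.subset_normalClosure hy
      change φ (α y) = 1
      rw [hα']; exact this
    · change φ _ = 1
      rw [map_mul, map_inv, hα', hβ', inv_mul_cancel]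
  · intro f hf
    let q := QuotientGroup.mk' (Subgroup.normalClosure S')
    have h1 : q = (q.comp α).comp β := by
      refine FreeGroup.ext_hom _ _ fun i => ?_
      exact QuotientGroup.eq.2 (Subgroup.subset_normalClosure (Or.inr ⟨i, rfl⟩))
    have h2 : ψ.ker ≤ (q.comp α).ker := by
      rw [← hS]
      apply Subgroup.normalClosure_le_normal
      intro y hy
      exact (QuotientGroup.eq_one_iff _).2 (Subgroup.subset_normalClosure (Or.inl ⟨y, hy, rfl⟩))
    have h3 : β f ∈ ψ.ker := by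
      change ψ (β f) = 1
      rw [hβ']; exact hf
    have h4 : q f = 1 := by
      rw [h1]; exact h2 h3
    exact (QuotientGroup.eq_one_iff _).1 h4

/-- Bounded orbits give a finite image. -/
theorem finite_range_of_orbits [Finite ι] (φ : FreeGroup ι →* G) (hφ : Function.Surjective φ)
    (X : Type*) [MulAction G X] (M : ℕ) (hM : ∀ x : X, (MulAction.orbit G x).encard ≤ M) :
    Finite (MulAction.toPermHom G X).range := by
  haveI : Finite (G →* Equiv.Perm (Fin M)) := by
    refine Finite.of_injective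
      (fun (ρ : G →* Equiv.Perm (Fin M)) (i : ι) => ρ (φ (FreeGroup.of i))) ?_
    intro ρ ρ' h
    have h1 : ρ.comp φ = ρ'.comp φ := FreeGroup.ext_hom _ _ fun i => congrFun h i
    ext1 g
    obtain ⟨f, rfl⟩ := hφ g
    exact DFunLike.congr_fun h1 f
  haveI : (⨅ ρ : G →* Equiv.Perm (Fin M), ρ.ker).FiniteIndex :=
    Subgroup.finiteIndex_iInf fun ρ => inferInstance
  have hle : (⨅ ρ : G →* Equiv.Perm (Fin M), ρ.ker) ≤ (MulAction.toPermHom G X).ker := by
    intro g hg
    rw [MonoidHom.mem_ker]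
    ext x
    have hfin := Set.finite_of_encard_le_coe (hM x)
    haveI : Finite (MulAction.orbit G x) := hfin
    haveI := Fintype.ofFinite (MulAction.orbit G x)
    have hcard : Fintype.card (MulAction.orbit G x) ≤ Fintype.card (Fin M) := by
      rw [Fintype.card_fin, ← Nat.card_eq_fintype_card, Nat.card_coe_set_eq]
      have := hM x
      rw [← hfin.cast_ncard_eq] at this
      exact_mod_cast this
    obtain ⟨e⟩ := Function.Embedding.nonempty_of_card_le hcard
    have h1 := Subgroup.mem_iInf.1 hg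
      ((Equiv.Perm.viaEmbeddingHom e).comp (MulAction.toPermHom G (MulAction.orbit G x)))
    rw [MonoidHom.mem_ker, MonoidHom.comp_apply] at h1
    have h2 : MulAction.toPermHom G (MulAction.orbit G x) g = 1 :=
      Equiv.Perm.viaEmbeddingHom_injective e (by rw [h1, map_one])
    have h3 := congrArg Subtype.val (DFunLike.congr_fun h2 ⟨x, MulAction.mem_orbit_self x⟩)
    exact h3
  haveI : (MulAction.toPermHom G X).ker.FiniteIndex := Subgroup.finiteIndex_of_le hle
  exact Finite.of_equiv _ (QuotientGroup.quotientKerEquivRange (MulAction.toPermHom G X)).toEquiv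

end P192
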