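import Mathlib

namespace P192

universe u

/-- The Schreier graph of the action of `G` on `X` with respect to a set `s` of group elements:
distinct points `x`, `y` are adjacent when some element of `s` maps one of them to the other. -/
def schreier {G : Type*} [Group G] (s : Set G) (X : Type*) [MulAction G X] : SimpleGraph X :=
  SimpleGraph.fromRel fun x y => ∃ g ∈ s, g • x = y

/-- The (possibly infinite) graph `H` has a tree decomposition of width at most `k`: a tree `T`
and bags `β t` of at most `k + 1` vertices, such that every edge lies in a bag and, for every
vertex `x`, the nodes whose bags contain `x` form a nonempty connected subgraph of `T`. -/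
def TreewidthLE {X : Type u} (H : SimpleGraph X) (k : ℕ) : Prop :=
  ∃ (Node : Type u) (T : SimpleGraph Node) (β : Node → Finset X), T.IsTree ∧
    (∀ t, (β t).card ≤ k + 1) ∧ (∀ x y, H.Adj x y → ∃ t, x ∈ β t ∧ y ∈ β t) ∧
    ∀ x, (T.induce {t | x ∈ β t}).Connected

end P192
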