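import Mathlib

namespace P192

open Classical

/-- Cycle lemma. -/
theorem sum_eq_zero_of_cycles {X : Type*} (M : Finset X) (f : X → X) (δ : X → ℤ)
    (hmap : ∀ x ∈ M, f x ∈ M) (hinj : ∀ x ∈ M, ∀ y ∈ M, f x = f y → x = y)
    (hcyc : ∀ x ∈ M, ∀ N, f^[N] x = x → ∑ t ∈ Finset.range N, δ (f^[t] x) = 0) :
    ∑ x ∈ M, δ x = 0 := by
  let g : M → M := fun x => ⟨f x, hmap x x.2⟩
  have hg : Function.Injective g := by
    intro x y h
    exact Subtype.ext (hinj x x.2 y y.2 (congrArg Subtype.val h))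
  let π : Equiv.Perm M := Equiv.ofBijective g hg.bijective_of_finite
  have hpow : ∀ t : ℕ, ∀ x : M, ((π ^ t) x : X) = f^[t] x := by
    intro t
    induction t with
    | zero => intro x; rfl
    | succ t ih =>
      intro x
      rw [pow_succ', Function.iterate_succ_apply', Equiv.Perm.mul_apply, ← ih x]
      rfl
  have hN : 0 < orderOf π := orderOf_pos π
  have h1 : ∀ x : M, ∑ t ∈ Finset.range (orderOf π), δ (f^[t] x) = 0 := by
    intro x
    apply hcyc x x.2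
    rw [← hpow, pow_orderOf_eq_one]; rfl
  have h2 : ∑ x : M, ∑ t ∈ Finset.range (orderOf π), δ (f^[t] x) = 0 :=
    Finset.sum_eq_zero fun x _ => h1 x
  rw [Finset.sum_comm] at h2
  have h3 : ∀ t ∈ Finset.range (orderOf π), ∑ x : M, δ (f^[t] x) = ∑ x ∈ M, δ x := by
    intro t _
    rw [← Finset.sum_coe_sort M δ, ← Equiv.sum_comp (π ^ t) (fun x : M => δ x)]
    exact Finset.sum_congr rfl fun x _ => by rw [hpow]
  rw [Finset.sum_congr rfl h3, Finset.sum_const, Finset.card_range, nsmul_eq_mul] at h2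
  rcases mul_eq_zero.1 h2 with h | h
  · exact absurd (by exact_mod_cast h) hN.ne'
  · exact h

section
variable {ι : Type*} {G : Type*} [Group G] {X : Type*} [MulAction G X]

/-- The group element of a letter. -/
def gen (φ : FreeGroup ι →* G) (l : ι × Bool) : G := φ (FreeGroup.mk [l])

/-- The formal inverse of a letter. -/
def linv (l : ι × Bool) : ι × Bool := (l.1, !l.2)

theorem mk_cons (φ : FreeGroup ι →* G) (l : ι × Bool) (w : List (ι × Bool)) :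
    φ (FreeGroup.mk (l :: w)) = gen φ l * φ (FreeGroup.mk w) := by
  rw [gen, ← map_mul, FreeGroup.mul_mk]; rfl

theorem gen_linv (φ : FreeGroup ι →* G) (l : ι × Bool) : gen φ (linv l) = (gen φ l)⁻¹ := by
  rw [gen, gen, ← map_inv, FreeGroup.inv_mk]; rfl

theorem mk_nil (φ : FreeGroup ι →* G) : φ (FreeGroup.mk []) = 1 := by
  rw [← FreeGroup.one_eq_mk, map_one]

/-- Gluing data. -/
structure Glue (φ : FreeGroup ι →* G) (X : Type*) [MulAction G X] (R : ℕ) where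
  P : Set X
  Q : Set X
  U : ℕ → Set X
  V : ℕ → Set X
  θ : X → X
  η : X → X
  PQ : P ⊆ Q
  θV : ∀ k ≤ R, ∀ y ∈ U k, θ y ∈ V k
  ηU : ∀ k ≤ R, ∀ y ∈ V k, η y ∈ U k
  ηθ : ∀ k ≤ R, ∀ y ∈ U k, η (θ y) = y
  θη : ∀ k ≤ R, ∀ y ∈ V k, θ (η y) = y
  θg : ∀ k < R, ∀ y ∈ U k, ∀ l, θ (gen φ l • y) = gen φ l • θ y
  θQ : ∀ k ≤ R, ∀ y ∈ U k, (θ y ∈ Q ↔ y ∈ P)
  UQ : ∀ k ≤ R, ∀ y ∈ U k, y ∈ Q
  VP : ∀ k ≤ R, ∀ y ∈ V k, y ∉ P
  Ug : ∀ k, ∀ y ∈ U k, ∀ l, gen φ l • y ∈ U (k + 1)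
  Vg : ∀ k, ∀ y ∈ V k, ∀ l, gen φ l • y ∈ V (k + 1)
  U0 : ∀ k, ∀ y ∈ P, ∀ l, gen φ l • y ∉ P → y ∈ U k
  V0 : ∀ k, ∀ y ∈ Q, ∀ l, gen φ l • y ∉ Q → y ∈ V k

namespace Glue
variable {φ : FreeGroup ι →* G} {R : ℕ} (D : Glue φ X R)

theorem ηg (k : ℕ) (hk : k < R) (y : X) (hy : y ∈ D.V k) (l : ι × Bool) :
    D.η (gen φ l • y) = gen φ l • D.η y := by
  have h1 := D.ηU k hk.le y hy
  have h2 := D.θg k hk _ h1 l
  rw [D.θη k hk.le y hy] at h2
  rw [← h2, D.ηθ (k + 1) hk _ (D.Ug k _ h1 l)]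

theorem ηP (k : ℕ) (hk : k ≤ R) (y : X) (hy : y ∈ D.V k) : D.η y ∈ D.P ↔ y ∈ D.Q := by
  rw [← D.θQ k hk _ (D.ηU k hk y hy), D.θη k hk y hy]

/-- The developing map. -/
noncomputable def Φ (n : ℤ) (y : X) : X × ℤ :=
  if y ∈ D.P then (D.θ y, n - 1) else if y ∈ D.Q then (y, n) else (D.η y, n + 1)

/-- The middle region. -/
def B (y : X) : Prop := y ∉ D.P ∧ y ∈ D.Q

/-- The glued step. -/
noncomputable def step (l : ι × Bool) (p : X × ℤ) : X × ℤ :=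
  if D.B p.1 then D.Φ p.2 (gen φ l • p.1) else p

/-- Developable points. -/
def Dev (k : ℕ) (y : X) : Prop := D.B y ∨ (y ∈ D.P ∧ y ∈ D.U k) ∨ (y ∉ D.Q ∧ y ∈ D.V k)

theorem Φ_B (n : ℤ) (y : X) (hy : D.B y) : D.Φ n y = (y, n) := by
  simp [Φ, hy.1, hy.2]

theorem Φ_P (n : ℤ) (y : X) (hy : y ∈ D.P) : D.Φ n y = (D.θ y, n - 1) := by
  simp [Φ, hy]

theorem Φ_Q (n : ℤ) (y : X) (hy : y ∉ D.Q) : D.Φ n y = (D.η y, n + 1) := by
  have : y ∉ D.P := fun h => hy (D.PQ h)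
  simp [Φ, hy, this]

theorem Dev.B_Φ {k : ℕ} (hk : k ≤ R) {y : X} (hy : D.Dev k y) (n : ℤ) : D.B (D.Φ n y).1 := by
  rcases hy with h | ⟨h, h'⟩ | ⟨h, h'⟩
  · rw [D.Φ_B n y h]; exact h
  · rw [D.Φ_P n y h]
    exact ⟨D.VP k hk _ (D.θV k hk y h'), (D.θQ k hk y h').2 h⟩
  · rw [D.Φ_Q n y h]
    exact ⟨fun h2 => h ((D.ηP k hk y h').1 h2), D.UQ k hk _ (D.ηU k hk y h')⟩

theorem Dev.next {k : ℕ} (hk : k < R) {y : X} (hy : D.Dev k y) (l : ι × Bool) :
    D.Dev (k + 1) (gen φ l • y) := by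
  rcases hy with h | ⟨h, h'⟩ | ⟨h, h'⟩
  · by_cases h1 : gen φ l • y ∈ D.P
    · refine Or.inr (Or.inl ⟨h1, D.U0 _ _ h1 (linv l) ?_⟩)
      rw [gen_linv, inv_smul_smul]; exact h.1
    · by_cases h2 : gen φ l • y ∈ D.Q
      · exact Or.inl ⟨h1, h2⟩
      · exact Or.inr (Or.inr ⟨h2, D.Vg k y (D.V0 k y h.2 l h2) l⟩)
  · have h3 := D.Ug k y h' l
    by_cases h1 : gen φ l • y ∈ D.P
    · exact Or.inr (Or.inl ⟨h1, h3⟩)
    · exact Or.inl ⟨h1, D.UQ _ hk _ h3⟩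
  · have h3 := D.Vg k y h' l
    by_cases h2 : gen φ l • y ∈ D.Q
    · exact Or.inl ⟨D.VP _ hk _ h3, h2⟩
    · exact Or.inr (Or.inr ⟨h2, h3⟩)

theorem Dev.step_Φ {k : ℕ} (hk : k < R) {y : X} (hy : D.Dev k y) (l : ι × Bool) (n : ℤ) :
    D.step l (D.Φ n y) = D.Φ n (gen φ l • y) := by
  have hB := Dev.B_Φ D hk.le hy n
  rw [step, if_pos hB]
  rcases hy with h | ⟨h, h'⟩ | ⟨h, h'⟩
  · rw [D.Φ_B n y h]
  · rw [D.Φ_P n y h]
    have h3 := D.Ug k y h' l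
    have h4 := D.θV _ hk _ h3
    simp only
    rw [← D.θg k hk y h' l]
    by_cases h1 : gen φ l • y ∈ D.P
    · rw [D.Φ_P n _ h1, D.Φ_B _ _ ⟨D.VP _ hk _ h4, (D.θQ _ hk _ h3).2 h1⟩]
    · rw [D.Φ_B n _ ⟨h1, D.UQ _ hk _ h3⟩, D.Φ_Q _ _ (fun h5 => h1 ((D.θQ _ hk _ h3).1 h5)),
        D.ηθ _ hk _ h3]
      simp
  · rw [D.Φ_Q n y h]
    have h3 := D.Vg k y h' l
    have h4 := D.ηU _ hk _ h3
    simp only
    rw [← D.ηg k hk y h' l]
    by_cases h2 : gen φ l • y ∈ D.Q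
    · rw [D.Φ_B n _ ⟨D.VP _ hk _ h3, h2⟩, D.Φ_P _ _ ((D.ηP _ hk _ h3).2 h2), D.θη _ hk _ h3]
      simp
    · rw [D.Φ_Q n _ h2, D.Φ_B _ _ ⟨fun h5 => h2 ((D.ηP _ hk _ h3).1 h5), D.UQ _ hk _ h4⟩]

/-- Running a word. -/
noncomputable def run : List (ι × Bool) → X × ℤ → X × ℤ
  | [], p => p
  | l :: w, p => D.step l (run w p)

theorem run_B (w : List (ι × Bool)) (hw : w.length ≤ R) (x : X) (hx : D.B x) (n : ℤ) :
    D.Dev w.length (φ (FreeGroup.mk w) • x) ∧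
      D.run w (x, n) = D.Φ n (φ (FreeGroup.mk w) • x) := by
  induction w with
  | nil =>
    rw [mk_nil, one_smul]
    exact ⟨Or.inl hx, (D.Φ_B n x hx).symm⟩
  | cons l w ih =>
    have hw' : w.length < R := by simpa using hw
    obtain ⟨h1, h2⟩ := ih hw'.le
    rw [mk_cons, mul_smul]
    refine ⟨Dev.next D hw' h1 l, ?_⟩
    rw [run, h2, Dev.step_Φ D hw' h1]

theorem run_not_B (w : List (ι × Bool)) (p : X × ℤ) (hx : ¬ D.B p.1) : D.run w p = p := by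
  induction w with
  | nil => rfl
  | cons l w ih => rw [run, ih, step, if_neg hx]

theorem run_one (w : List (ι × Bool)) (hw : w.length ≤ R) (h1 : φ (FreeGroup.mk w) = 1)
    (p : X × ℤ) : D.run w p = p := by
  by_cases hx : D.B p.1
  · have := (D.run_B w hw p.1 hx p.2).2
    rw [h1, one_smul, D.Φ_B _ _ hx] at this
    exact this
  · exact D.run_not_B w p hx

theorem step_linv (hR : 2 ≤ R) (l : ι × Bool) (p : X × ℤ) :
    D.step (linv l) (D.step l p) = p := by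
  have := D.run_one [linv l, l] hR (by
    rw [mk_cons, mk_cons, mk_nil, gen_linv]; simp) p
  exact this

/-- The glued permutations. -/
noncomputable def τ (hR : 2 ≤ R) (i : ι) : Equiv.Perm (X × ℤ) where
  toFun := D.step (i, true)
  invFun := D.step (i, false)
  left_inv p := D.step_linv hR (i, true) p
  right_inv p := D.step_linv hR (i, false) p

/-- The glued action. -/
noncomputable def ψ (hR : 2 ≤ R) : FreeGroup ι →* Equiv.Perm (X × ℤ) := FreeGroup.lift (D.τ hR)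

theorem gen_ψ (hR : 2 ≤ R) (l : ι × Bool) (p : X × ℤ) : gen (D.ψ hR) l p = D.step l p := by
  obtain ⟨i, b⟩ := l
  cases b
  · have : gen (D.ψ hR) (i, false) = (D.τ hR i)⁻¹ := by
      simp [gen, ψ, FreeGroup.lift_mk]
    rw [this]; rfl
  · have : gen (D.ψ hR) (i, true) = D.τ hR i := by
      simp [gen, ψ, FreeGroup.lift_mk]
    rw [this]; rfl

theorem ψ_mk (hR : 2 ≤ R) (w : List (ι × Bool)) (p : X × ℤ) :
    D.ψ hR (FreeGroup.mk w) p = D.run w p := by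
  induction w with
  | nil => rw [mk_nil]; rfl
  | cons l w ih => rw [mk_cons, Equiv.Perm.mul_apply, ih, gen_ψ]; rfl

theorem step_shift (l : ι × Bool) (x : X) (n : ℤ) :
    D.step l (x, n) = ((D.step l (x, 0)).1, (D.step l (x, 0)).2 + n) := by
  unfold step Φ
  split_ifs <;> simp <;> ring

theorem run_shift (w : List (ι × Bool)) (x : X) (n : ℤ) :
    D.run w (x, n) = ((D.run w (x, 0)).1, (D.run w (x, 0)).2 + n) := by
  induction w with
  | nil => simp [run]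
  | cons l w ih =>
    rw [run, run, ih, D.step_shift]
    rw [show D.run w (x, 0) = ((D.run w (x, 0)).1, (D.run w (x, 0)).2) from rfl,
      D.step_shift l _ (D.run w (x, 0)).2]
    simp [add_assoc]

theorem no_translation [DecidableEq ι] (hR : 2 ≤ R) (S : Set (FreeGroup ι))
    (hS : Subgroup.normalClosure S = φ.ker) (hlen : ∀ s ∈ S, s.toWord.length ≤ R)
    (hper : ∀ g : G, IsOfFinOrder g) (f : FreeGroup ι) (x : X) (k : ℤ)
    (h : D.ψ hR f (x, 0) = (x, k)) : k = 0 := by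
  have hker : φ.ker ≤ (D.ψ hR).ker := by
    rw [← hS]
    apply Subgroup.normalClosure_le_normal
    intro s hs
    have h1 : φ s = 1 := by
      have : s ∈ φ.ker := hS ▸ Subgroup.subset_normalClosure hs
      exact this
    change D.ψ hR s = 1
    ext1 p
    rw [← FreeGroup.mk_toWord (x := s), ψ_mk]
    exact D.run_one _ (hlen s hs) (by rw [FreeGroup.mk_toWord]; exact h1) p
  obtain ⟨m, hm, hm1⟩ := (hper (φ f)).exists_pow_eq_one
  have h2 : D.ψ hR (f ^ m) = 1 := hker (by rw [MonoidHom.mem_ker, map_pow]; exact hm1)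
  have hsh : ∀ n : ℤ, D.ψ hR f (x, n) = (x, k + n) := by
    intro n
    rw [← FreeGroup.mk_toWord (x := f), ψ_mk] at h ⊢
    rw [D.run_shift, h]
  have h3 : ∀ j : ℕ, D.ψ hR (f ^ j) (x, 0) = (x, j * k) := by
    intro j
    induction j with
    | zero => simp
    | succ j ih =>
      rw [pow_succ', map_mul, Equiv.Perm.mul_apply, ih, hsh]
      push_cast; ring_nf
  have h4 := h3 m
  rw [h2] at h4
  have h5 : (0 : ℤ) = m * k := congrArg Prod.snd h4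
  rcases mul_eq_zero.1 h5.symm with h6 | h6
  · exact absurd (by exact_mod_cast h6) hm.ne'
  · exact h6

end Glue
end
end P192
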