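import Vale.Agent.P192.TW
import Vale.Agent.P192.Defs

namespace P192

open Classical

universe v
variable {G : Type*} [Group G]

/-- The presentation map of a finite generating set. -/
def pres (s : Finset G) : FreeGroup s →* G := FreeGroup.lift Subtype.val

theorem pres_surj (s : Finset G) (hs : Subgroup.closure (s : Set G) = ⊤) :
    Function.Surjective (pres s) := by
  rw [← MonoidHom.range_eq_top, pres, FreeGroup.range_lift_eq_closure, Subtype.range_coe_subtype]
  exact hs

theorem adj_gen (s : Finset G) {X : Type*} [MulAction G X] (x : X) (l : s × Bool)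
    (h : gen (pres s) l • x ≠ x) : (schreier (s : Set G) X).Adj x (gen (pres s) l • x) := by
  rw [schreier, SimpleGraph.fromRel_adj]
  refine ⟨h.symm, ?_⟩
  obtain ⟨i, b⟩ := l
  cases b
  · right
    refine ⟨i, i.2, ?_⟩
    have : gen (pres s) (i, false) = (i : G)⁻¹ := by simp [gen, pres, FreeGroup.lift_mk]
    rw [this, smul_inv_smul]
  · left
    refine ⟨i, i.2, ?_⟩
    have : gen (pres s) (i, true) = (i : G) := by simp [gen, pres, FreeGroup.lift_mk]
    rw [this]

theorem pump [Group.IsFinitelyPresented G] (hper : ∀ g : G, IsOfFinOrder g) (s : Finset G)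
    (hs : Subgroup.closure (s : Set G) = ⊤) (K : ℕ) :
    ∃ (N : ℕ) (F : Finset G), ∀ (X : Type v) [MulAction G X] (A : ℕ → Set X),
      (∀ i ≤ N, {x ∈ A i | ∃ y ∉ A i, (schreier (s : Set G) X).Adj x y}.encard ≤ K) →
      (∀ i ≤ N, ∀ g ∈ F, ∀ x ∈ A i, g • x ∈ A (i + 1)) →
      ∀ g : G, ∀ x ∈ A 0, g • x ∈ A (N + 1) := by
  obtain ⟨S, hSf, hS⟩ := pres_of_gen (pres s) (pres_surj s hs)
  obtain ⟨N, R, h⟩ := chain'.{v} (pres s) (pres_surj s hs) S hS hSf hper K
  have hF := (List.finite_length_le (s × Bool) R).image fun w => pres s (FreeGroup.mk w)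
  refine ⟨N, hF.toFinset, fun X _ A H1 H2 g x hx => h X A ?_ ?_ x hx g⟩
  · intro i hi
    refine (Set.encard_le_encard ?_).trans (H1 i hi)
    rintro y ⟨hy, l, hl⟩
    exact ⟨hy, _, hl, adj_gen s y l fun h => hl (h.symm ▸ hy)⟩
  · intro i hi y hy w hw
    exact H2 i hi _ (hF.mem_toFinset.2 ⟨w, hw, rfl⟩) y hy

theorem finite_of_faithful (X : Type*) [MulAction G X] [FaithfulSMul G X]
    (h : Finite (MulAction.toPermHom G X).range) : Finite G :=
  Finite.of_injective (MulAction.toPermHom G X).rangeRestrict fun _ _ hab =>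
    MulAction.toPerm_injective (congrArg Subtype.val hab)

theorem exhaust [Group.IsFinitelyPresented G] (hper : ∀ g : G, IsOfFinOrder g) (s : Finset G)
    (hs : Subgroup.closure (s : Set G) = ⊤) (X : Type v) [MulAction G X]
    [MulAction.IsPretransitive G X] (A : ℕ → Finset X) (K : ℕ)
    (hA : ∀ x, ∀ᶠ n in Filter.atTop, x ∈ A n)
    (hK : ∀ n, {x ∈ (A n : Set X) | ∃ y ∉ (A n : Set X),
      (schreier (s : Set G) X).Adj x y}.encard ≤ K) : Finite X := by
  obtain ⟨N, F, h⟩ := pump.{v} hper s hs K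
  rcases isEmpty_or_nonempty X with hX | ⟨⟨u⟩⟩
  · infer_instance
  have hnext : ∀ n, ∃ n', ∀ g ∈ F, ∀ x ∈ A n, g • x ∈ A n' := by
    intro n
    have : ∀ᶠ n' in Filter.atTop, ∀ g ∈ F, ∀ x ∈ A n, g • x ∈ A n' :=
      (Filter.eventually_all_finset F).2 fun g _ =>
        (Filter.eventually_all_finset (A n)).2 fun x _ => hA _
    exact this.exists
  choose nx hnx using hnext
  obtain ⟨n0, hn0⟩ := (hA u).exists
  have h1 := h X (fun i => (A (nx^[i] n0) : Set X)) (fun i _ => hK _) (by
    intro i _ g hg x hx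
    simp only [Function.iterate_succ_apply']
    exact hnx _ g hg x hx)
  have h2 : (Set.univ : Set X) ⊆ (A (nx^[N + 1] n0) : Set X) := by
    intro x _
    obtain ⟨g, rfl⟩ := MulAction.exists_smul_eq G u x
    exact h1 g u hn0
  exact Set.finite_univ_iff.1 ((Finset.finite_toSet _).subset h2)

theorem treewidth [Group.IsFinitelyPresented G] (hper : ∀ g : G, IsOfFinOrder g) (s : Finset G)
    (hs : Subgroup.closure (s : Set G) = ⊤) (k : ℕ) :
    ∃ M : ℕ, ∀ (X : Type v) [MulAction G X], TreewidthLE (schreier (s : Set G) X) k →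
      (∀ x : X, (MulAction.orbit G x).encard ≤ M) ∧ Finite (MulAction.toPermHom G X).range := by
  obtain ⟨M, h⟩ := tw_bound.{v} (pres s) (pres_surj s hs) hper (k + 1)
  refine ⟨M, fun X _ ⟨V, T, β, h1, h2, h3, h4⟩ => ?_⟩
  have hD : ∀ x : X, (MulAction.orbit G x).encard ≤ M := h X V
    { T := T
      β := β
      tree := h1
      card := h2
      edge := by
        intro x l
        by_cases hx : gen (pres s) l • x = x
        · obtain ⟨t⟩ := (h4 x).nonempty
          exact ⟨t.1, t.2, hx.symm ▸ t.2⟩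
        · exact h3 _ _ (adj_gen s x l hx)
      conn := h4 }
  exact ⟨hD, finite_range_of_orbits (pres s) (pres_surj s hs) X M hD⟩

theorem wobbling [Group.IsFinitelyPresented G] (hper : ∀ g : G, IsOfFinOrder g) (s : Finset G)
    (hs : Subgroup.closure (s : Set G) = ⊤) (ρ : G →* Equiv.Perm ℤ)
    (hb : ∀ g, ∃ C : ℤ, ∀ x, |ρ g x - x| ≤ C) : Finite ρ.range := by
  letI : MulAction G ℤ := MulAction.compHom ℤ ρ
  have hsm : ∀ (g : G) (x : ℤ), g • x = ρ g x := fun _ _ => rfl
  choose c hc using hb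
  have hbd : ∀ F : Finset G, ∃ D : ℕ, ∀ g ∈ F, ∀ x, |ρ g x - x| ≤ D := by
    intro F
    refine ⟨F.sup fun g => (c g).toNat, fun g hg x => (hc g x).trans ?_⟩
    exact (Int.self_le_toNat _).trans
      (Nat.cast_le.2 (Finset.le_sup (f := fun g => (c g).toNat) hg))
  obtain ⟨C, hC⟩ := hbd s
  obtain ⟨N, F, h⟩ := pump.{0} hper s hs (C + 1)
  obtain ⟨D, hD⟩ := hbd F
  have key : ∀ (g : G) (u : ℤ), g • u ≤ u + (N + 1 : ℕ) * D := by
    intro g u
    refine h ℤ (fun i => {x | x ≤ u + i * D}) ?_ ?_ g u (by simp)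
    · intro i _
      have h1 : {x ∈ {x : ℤ | x ≤ u + i * D} | ∃ y ∉ {x : ℤ | x ≤ u + i * D},
          (schreier (s : Set G) ℤ).Adj x y} ⊆ (Finset.Icc (u + i * D - C) (u + i * D) : Set ℤ) := by
        rintro x ⟨hx, y, hy, hxy⟩
        rw [schreier, SimpleGraph.fromRel_adj] at hxy
        simp only [Set.mem_setOf_eq, not_le] at hx hy
        rw [Finset.coe_Icc]
        refine ⟨?_, hx⟩
        rcases hxy.2 with ⟨g, hg, rfl⟩ | ⟨g, hg, rfl⟩
        · have := abs_le.1 (hC g hg x)
          rw [hsm] at hy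
          omega
        · have := abs_le.1 (hC g hg y)
          rw [hsm] at hx ⊢
          omega
      refine (Set.encard_le_encard h1).trans ?_
      rw [Set.encard_coe_eq_coe_finsetCard, Int.card_Icc]
      exact Nat.cast_le.2 (by omega)
    · intro i _ g hg x hx
      have := abs_le.1 (hD g hg x)
      simp only [Set.mem_setOf_eq, hsm] at hx ⊢
      push_cast
      linarith [this.2]
  have horb : ∀ x : ℤ, (MulAction.orbit G x).encard ≤ (2 * ((N + 1) * D) + 1 : ℕ) := by
    intro x
    have h1 : MulAction.orbit G x ⊆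
        (Finset.Icc (x - ((N + 1) * D : ℕ)) (x + ((N + 1) * D : ℕ)) : Set ℤ) := by
      rintro y ⟨g, rfl⟩
      rw [Finset.coe_Icc]
      have h2 := key g x
      have h3 := key g⁻¹ (g • x)
      rw [inv_smul_smul] at h3
      push_cast at h2 h3 ⊢
      constructor <;> linarith
    refine (Set.encard_le_encard h1).trans ?_
    rw [Set.encard_coe_eq_coe_finsetCard, Int.card_Icc]
    exact Nat.cast_le.2 (by omega)
  have h4 := finite_range_of_orbits (pres s) (pres_surj s hs) ℤ _ horb
  have h5 : MulAction.toPermHom G ℤ = ρ := by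
    ext g x; rfl
  rwa [h5] at h4

end P192
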