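import Vale.Agent.P192.Glue

namespace P192

open Classical

variable {ι : Type*} {G : Type*} [Group G] {X : Type*} [MulAction G X]

/-- Number of exits of a path from a set. -/
noncomputable def exits (γ : ℕ → X) (T : ℕ) (A : Set X) : ℕ :=
  ((Finset.range T).filter fun t => γ t ∈ A ∧ γ (t + 1) ∉ A).card

theorem exits_sub (γ : ℕ → X) (T : ℕ) (A : Set X) (h0 : γ 0 ∈ A) (hT : γ T ∉ A) :
    (exits γ T A : ℤ) - ∑ t ∈ Finset.range T, (if γ t ∉ A ∧ γ (t + 1) ∈ A then (1 : ℤ) else 0)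
      = 1 := by
  have h := Finset.sum_range_sub' (fun t => if γ t ∈ A then (1 : ℤ) else 0) T
  simp only [h0, hT, if_true, if_false, sub_zero] at h
  rw [exits, Finset.card_filter, Nat.cast_sum, ← Finset.sum_sub_distrib]
  refine Eq.trans (Finset.sum_congr rfl fun t _ => ?_) h
  by_cases h1 : γ t ∈ A <;> by_cases h2 : γ (t + 1) ∈ A <;> simp [h1, h2]

namespace Glue
variable {φ : FreeGroup ι →* G} {R : ℕ} (D : Glue φ X R)

theorem no_path [DecidableEq ι] (hR : 2 ≤ R) (S : Set (FreeGroup ι))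
    (hS : Subgroup.normalClosure S = φ.ker) (hlen : ∀ s ∈ S, s.toWord.length ≤ R)
    (hper : ∀ g : G, IsOfFinOrder g) (γ : ℕ → X) (lam : ℕ → ι × Bool) (T : ℕ)
    (hstep : ∀ t < T, γ (t + 1) = gen φ (lam t) • γ t)
    (hinj : ∀ s < T, ∀ t < T, γ s = γ t → s = t) (h0 : γ 0 ∈ D.P) (hT : γ T ∉ D.Q)
    (hTV : γ T ∉ D.V 1) (m pm : X → Option (ι × Bool))
    (hm : ∀ t < T, m (γ t) = some (lam t)) (hm' : ∀ x l, m x = some l → ∃ t < T, x = γ t)
    (hpm : ∀ t < T, pm (γ (t + 1)) = some (lam t))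
    (θm : ∀ y ∈ D.U 1, m (D.θ y) = m y ∧ pm (D.θ y) = pm y)
    (hpar : exits γ T D.P % 2 = exits γ T D.Q % 2) : False := by
  have hR0 : 0 < R := by omega
  have hR1 : 1 ≤ R := by omega
  let nx : X → X × ℤ := fun x => (m x).elim (x, 0) fun l => D.step l (x, 0)
  let f : X → X := fun x => (nx x).1
  let δ : X → ℤ := fun x => (nx x).2
  let I : Finset ℕ := (Finset.range T).filter fun t => D.B (γ t)
  let M : Finset X := I.image γ
  have hM : ∀ x ∈ M, ∃ t < T, D.B (γ t) ∧ x = γ t := by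
    intro x hx
    obtain ⟨t, ht, rfl⟩ := Finset.mem_image.1 hx
    obtain ⟨h1, h2⟩ := Finset.mem_filter.1 ht
    exact ⟨t, Finset.mem_range.1 h1, h2, rfl⟩
  have hnx : ∀ t < T, nx (γ t) = D.step (lam t) (γ t, 0) := by
    intro t ht
    simp only [nx, hm t ht, Option.elim]
  have hnx' : ∀ t < T, D.B (γ t) → nx (γ t) = D.Φ 0 (γ (t + 1)) := by
    intro t ht hB
    rw [hnx t ht, step, if_pos hB, hstep t ht]
  have hdev : ∀ t < T, D.B (γ t) → D.Dev 1 (γ (t + 1)) := by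
    intro t ht hB
    rw [hstep t ht]
    exact Dev.next D hR0 (Or.inl hB) _
  have hA : ∀ t < T, D.B (γ t) → t + 1 < T ∧ m (f (γ t)) = m (γ (t + 1)) ∧
      pm (f (γ t)) = pm (γ (t + 1)) := by
    intro t ht hB
    have hf : f (γ t) = (D.Φ 0 (γ (t + 1))).1 := congrArg Prod.fst (hnx' t ht hB)
    have hne : ∀ h : γ (t + 1) ∈ D.Q ∨ γ (t + 1) ∈ D.V 1, t + 1 < T := by
      intro h
      rcases Nat.lt_or_ge (t + 1) T with h1 | h1
      · exact h1
      · have : t + 1 = T := by omega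
        rw [this] at h
        exact absurd h (not_or.2 ⟨hT, hTV⟩)
    rw [hf]
    rcases hdev t ht hB with h | ⟨h, h'⟩ | ⟨h, h'⟩
    · rw [D.Φ_B _ _ h]; exact ⟨hne (Or.inl h.2), rfl, rfl⟩
    · rw [D.Φ_P _ _ h]; exact ⟨hne (Or.inl (D.PQ h)), θm _ h'⟩
    · rw [D.Φ_Q _ _ h]
      have := θm _ (D.ηU 1 hR1 _ h')
      rw [D.θη 1 hR1 _ h'] at this
      exact ⟨hne (Or.inr h'), this.1.symm, this.2.symm⟩
  have hmap : ∀ x ∈ M, f x ∈ M := by
    intro x hx
    obtain ⟨t, ht, hB, rfl⟩ := hM x hx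
    obtain ⟨h1, h2, -⟩ := hA t ht hB
    rw [hm _ h1] at h2
    obtain ⟨s, hs, hs'⟩ := hm' _ _ h2
    have hB' : D.B (f (γ t)) := by
      have hf : f (γ t) = (D.Φ 0 (γ (t + 1))).1 := congrArg Prod.fst (hnx' t ht hB)
      rw [hf]; exact Dev.B_Φ D hR1 (hdev t ht hB) 0
    rw [hs'] at hB' ⊢
    exact Finset.mem_image.2 ⟨s, Finset.mem_filter.2 ⟨Finset.mem_range.2 hs, hB'⟩, rfl⟩
  have hinjf : ∀ x ∈ M, ∀ y ∈ M, f x = f y → x = y := by
    intro x hx y hy hxy
    obtain ⟨s, hs, hBs, rfl⟩ := hM x hx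
    obtain ⟨t, ht, hBt, rfl⟩ := hM y hy
    have h1 := (hA s hs hBs).2.2
    have h2 := (hA t ht hBt).2.2
    rw [hxy, h2, hpm s hs, hpm t ht] at h1
    have hl : lam t = lam s := Option.some.inj h1
    have h3 : D.step (lam s) (γ t, δ (γ s) - δ (γ t)) = D.step (lam s) (γ s, 0) := by
      rw [D.step_shift, ← hnx s hs, ← hl, ← hnx t ht]
      refine Prod.ext hxy.symm ?_
      simp only [δ]; ring
    have h4 := congrArg (D.step (linv (lam s))) h3
    rw [D.step_linv hR, D.step_linv hR] at h4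
    exact (congrArg Prod.fst h4).symm
  have hcyc : ∀ x ∈ M, ∀ N, f^[N] x = x → ∑ t ∈ Finset.range N, δ (f^[t] x) = 0 := by
    intro x hx N hN
    have key : ∀ N : ℕ, f^[N] x ∈ M ∧ ∃ g : FreeGroup ι,
        D.ψ hR g (x, 0) = (f^[N] x, ∑ t ∈ Finset.range N, δ (f^[t] x)) := by
      intro N
      induction N with
      | zero => exact ⟨hx, 1, by simp⟩
      | succ N ih =>
        obtain ⟨h1, g, hg⟩ := ih
        rw [Function.iterate_succ_apply']
        refine ⟨hmap _ h1, ?_⟩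
        obtain ⟨t, ht, hB, ht'⟩ := hM _ h1
        refine ⟨FreeGroup.mk [lam t] * g, ?_⟩
        rw [map_mul, Equiv.Perm.mul_apply, hg, Finset.sum_range_succ, ht']
        have := D.gen_ψ hR (lam t) (γ t, ∑ t ∈ Finset.range N, δ (f^[t] x))
        rw [gen] at this
        rw [this, D.step_shift, ← hnx t ht]
        refine Prod.ext rfl ?_
        simp only [δ]; ring
    obtain ⟨-, g, hg⟩ := key N
    rw [hN] at hg
    exact D.no_translation hR S hS hlen hper g x _ hg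
  have hsum := sum_eq_zero_of_cycles M f δ hmap hinjf hcyc
  have hI : ∀ s ∈ I, ∀ t ∈ I, γ s = γ t → s = t := fun s hs t ht =>
    hinj s (Finset.mem_range.1 (Finset.mem_filter.1 hs).1) t
      (Finset.mem_range.1 (Finset.mem_filter.1 ht).1)
  rw [Finset.sum_image hI, Finset.sum_filter] at hsum
  have hterm : ∀ t ∈ Finset.range T, (if D.B (γ t) then δ (γ t) else 0) =
      (if γ t ∈ D.Q ∧ γ (t + 1) ∉ D.Q then (1 : ℤ) else 0) -
        (if γ t ∉ D.P ∧ γ (t + 1) ∈ D.P then (1 : ℤ) else 0) := by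
    intro t ht
    have ht := Finset.mem_range.1 ht
    by_cases hB : D.B (γ t)
    · have hd : δ (γ t) = (D.Φ 0 (γ (t + 1))).2 := congrArg Prod.snd (hnx' t ht hB)
      rw [if_pos hB, hd]
      by_cases h1 : γ (t + 1) ∈ D.P
      · rw [D.Φ_P _ _ h1]; simp [h1, D.PQ h1, hB.1]
      · by_cases h2 : γ (t + 1) ∈ D.Q
        · rw [D.Φ_B _ _ ⟨h1, h2⟩]; simp [h1, h2]
        · rw [D.Φ_Q _ _ h2]; simp [h1, h2, hB.2]
    · rw [if_neg hB, if_neg, if_neg]
      · simp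
      · rintro ⟨h1, h2⟩
        apply hB
        refine ⟨h1, ?_⟩
        have h3 : γ t = gen φ (linv (lam t)) • γ (t + 1) := by
          rw [gen_linv, hstep t ht, inv_smul_smul]
        have h4 : γ (t + 1) ∈ D.U 0 := D.U0 0 _ h2 (linv (lam t)) (h3 ▸ h1)
        rw [h3]
        exact D.UQ 1 hR1 _ (D.Ug 0 _ h4 _)
      · rintro ⟨h1, h2⟩
        apply hB
        refine ⟨D.VP 0 hR0.le _ (D.V0 0 _ h1 (lam t) ?_), h1⟩
        rw [← hstep t ht]; exact h2
  rw [Finset.sum_congr rfl hterm, Finset.sum_sub_distrib] at hsum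
  have h1 := exits_sub γ T D.P h0 (fun h => hT (D.PQ h))
  have h2 : (exits γ T D.Q : ℤ) =
      ∑ t ∈ Finset.range T, (if γ t ∈ D.Q ∧ γ (t + 1) ∉ D.Q then (1 : ℤ) else 0) := by
    rw [exits, Finset.card_filter, Nat.cast_sum]
    refine Finset.sum_congr rfl fun t _ => ?_
    split_ifs <;> simp
  omega

end Glue
end P192
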