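import Mathlib

namespace P192

open Classical SimpleGraph

variable {V : Type*} {T : SimpleGraph V}

theorem closer (hT : T.IsTree) {t t' s : V} (h : T.Adj t t')
    (hr : (T.deleteEdges {s(t, t')}).Reachable t' s) : T.dist t' s + 1 ≤ T.dist t s := by
  obtain ⟨p, hp⟩ := hT.connected.exists_walk_length_eq_dist t s
  have hbr := isBridge_iff.1 (isAcyclic_iff_forall_adj_isBridge.1 hT.isAcyclic h)
  by_cases he : s(t, t') ∈ p.edges
  · have hs := p.snd_mem_support_of_mem_edges he
    have h1 := congrArg Walk.length (p.take_spec hs)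
    rw [Walk.length_append] at h1
    have h2 : (p.takeUntil t' hs).length ≠ 0 := fun h0 => h.ne (Walk.eq_of_length_eq_zero h0)
    have h3 := T.dist_le (p.dropUntil t' hs)
    omega
  · exact absurd ((reachable_deleteEdges_iff_exists_walk.2 ⟨p, he⟩).trans hr.symm) hbr

theorem exists_branch (hT : T.IsTree) {t s : V} (h : s ≠ t) :
    ∃ t', T.Adj t t' ∧ (T.deleteEdges {s(t, t')}).Reachable t' s := by
  obtain ⟨p, hp⟩ := hT.connected.exists_isPath t s
  cases p with
  | nil => exact absurd rfl h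
  | cons ha q =>
    rw [Walk.cons_isPath_iff] at hp
    exact ⟨_, ha, reachable_deleteEdges_iff_exists_walk.2
      ⟨q, fun he => hp.2 (q.fst_mem_support_of_mem_edges he)⟩⟩

theorem reach_of_induce {Z : Set V} (hZ : (T.induce Z).Connected) {t t' a b : V} (ht : t ∉ Z)
    (ha : a ∈ Z) (hb : b ∈ Z) : (T.deleteEdges {s(t, t')}).Reachable a b := by
  let f : T.induce Z →g T.deleteEdges {s(t, t')} :=
    { toFun := Subtype.val
      map_rel' := by
        intro x y hxy
        rw [deleteEdges_adj]
        refine ⟨hxy, ?_⟩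
        rw [Set.mem_singleton_iff, Sym2.eq_iff]
        rintro (⟨h1, -⟩ | ⟨-, h1⟩)
        · exact ht (h1 ▸ x.2)
        · exact ht (h1 ▸ y.2) }
  exact (hZ.preconnected ⟨a, ha⟩ ⟨b, hb⟩).map f

theorem centroid (hT : T.IsTree) {X : Type*} (W : Finset X) (ν : X → V) :
    ∃ t, ∀ t', T.Adj t t' →
      2 * (W.filter fun w => (T.deleteEdges {s(t, t')}).Reachable t' (ν w)).card ≤ W.card := by
  let f : V → ℕ := fun t => ∑ w ∈ W, T.dist t (ν w)
  obtain ⟨t0⟩ := hT.connected.nonempty
  have hex : ∃ n, ∃ t, f t = n := ⟨_, t0, rfl⟩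
  obtain ⟨t, ht⟩ := Nat.find_spec hex
  refine ⟨t, fun t' h => ?_⟩
  have h1 : f t ≤ f t' := ht ▸ Nat.find_min' hex ⟨t', rfl⟩
  have h2 : ∑ w ∈ W, (T.dist t' (ν w) +
      2 * if (T.deleteEdges {s(t, t')}).Reachable t' (ν w) then 1 else 0) ≤
      ∑ w ∈ W, (T.dist t (ν w) + 1) := by
    refine Finset.sum_le_sum fun w _ => ?_
    split_ifs with hr
    · have := closer hT h hr
      omega
    · have h3 : T.dist t' (ν w) ≤ T.dist t' t + T.dist t (ν w) := hT.connected.dist_triangle
      have h4 : T.dist t' t = 1 := dist_eq_one_iff_adj.2 h.symm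
      omega
  rw [Finset.sum_add_distrib, Finset.sum_add_distrib, ← Finset.mul_sum, ← Finset.card_filter,
    Finset.sum_const, smul_eq_mul, mul_one] at h2
  simp only [f] at h1
  omega

theorem encard_biUnion_le {X Y : Type*} (Z : Finset Y) (f : Y → Set X) (n : ℕ)
    (h : ∀ z ∈ Z, (f z).encard ≤ n) : (⋃ z ∈ Z, f z).encard ≤ (Z.card * n : ℕ) := by
  induction Z using Finset.induction_on with
  | empty => simp
  | insert a Z ha ih =>
    rw [Finset.set_biUnion_insert, Finset.card_insert_of_notMem ha]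
    refine (Set.encard_union_le _ _).trans ?_
    have h1 := h a (Finset.mem_insert_self _ _)
    have h2 := ih fun z hz => h z (Finset.mem_insert_of_mem hz)
    refine (add_le_add h1 h2).trans (le_of_eq ?_)
    push_cast; ring

end P192
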