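import Vale.Agent.P192.Chain
import Vale.Agent.P192.Tree

namespace P192

open Classical SimpleGraph

universe u
variable {ι : Type*} [Fintype ι] {G : Type*} [Group G] {X : Type*} [MulAction G X]

/-- Neighbours of a finite set. -/
noncomputable def nbr (φ : FreeGroup ι →* G) (W : Finset X) : Finset X :=
  ((Finset.univ : Finset (ι × Bool)) ×ˢ W).image fun p => gen φ p.1 • p.2

theorem card_nbr (φ : FreeGroup ι →* G) (W : Finset X) :
    (nbr φ W).card ≤ Fintype.card (ι × Bool) * W.card := by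
  refine Finset.card_image_le.trans ?_
  rw [Finset.card_product, Finset.card_univ]

theorem mem_nbr (φ : FreeGroup ι →* G) {W : Finset X} {x : X} (hx : x ∈ W) (l : ι × Bool) :
    gen φ l • x ∈ nbr φ W :=
  Finset.mem_image.2 ⟨(l, x), Finset.mem_product.2 ⟨Finset.mem_univ _, hx⟩, rfl⟩

theorem mem_nbr' (φ : FreeGroup ι →* G) {W : Finset X} {x : X} {l : ι × Bool}
    (hx : gen φ l • x ∈ W) : x ∈ nbr φ W := by
  have := mem_nbr φ hx (linv l)
  rwa [gen_linv, inv_smul_smul] at this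

/-- `C` has inner boundary of size at most `a`. -/
def Cut (φ : FreeGroup ι →* G) (C : Set X) (a : ℕ) : Prop :=
  ∃ W : Finset X, W.card ≤ a ∧ ∀ x ∈ C, ∀ l, gen φ l • x ∉ C → x ∈ W

/-- Tree decomposition data adapted to the letters. -/
structure TD (φ : FreeGroup ι →* G) (X : Type*) [MulAction G X] (k : ℕ) (V : Type*) where
  T : SimpleGraph V
  β : V → Finset X
  tree : T.IsTree
  card : ∀ t, (β t).card ≤ k
  edge : ∀ x l, ∃ t, x ∈ β t ∧ gen φ l • x ∈ β t
  conn : ∀ x, (T.induce {t | x ∈ β t}).Connected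

variable {φ : FreeGroup ι →* G} {k : ℕ} {V : Type*}

theorem shrink (D : TD φ X k V) (hφ : Function.Surjective φ) (u : X) (C : Set X)
    (hC : C ⊆ MulAction.orbit G u) (a n : ℕ) (hcut : Cut φ C a)
    (hbig : ((k + (Fintype.card (ι × Bool) * k + 1) * n : ℕ) : ℕ∞) < C.encard) :
    ∃ C' ⊆ C, Cut φ C' (a / 2 + Fintype.card (ι × Bool) * k) ∧ (n : ℕ∞) < C'.encard := by
  obtain ⟨W, hW, hW'⟩ := hcut
  have hν : ∀ x, ∃ s, x ∈ D.β s := fun x => by
    obtain ⟨s⟩ := (D.conn x).nonempty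
    exact ⟨s.1, s.2⟩
  choose ν hν using hν
  obtain ⟨t, ht⟩ := centroid D.tree W ν
  let pc : V → Set X := fun t' =>
    {x | x ∉ D.β t ∧ (D.T.deleteEdges {s(t, t')}).Reachable t' (ν x)}
  have hclosed : ∀ t' x l, x ∈ pc t' → gen φ l • x ∉ D.β t → gen φ l • x ∈ pc t' := by
    intro t' x l hx hy
    obtain ⟨s, hs1, hs2⟩ := D.edge x l
    refine ⟨hy, (hx.2.trans ?_).trans
      (reach_of_induce (D.conn (gen φ l • x)) (a := s) hy hs2 (hν _))⟩
    exact reach_of_induce (D.conn x) hx.1 (hν x) hs1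
  have hnb : ∀ z, ∃ t', z ∉ D.β t → D.T.Adj t t' ∧ z ∈ pc t' := by
    intro z
    by_cases hz : z ∈ D.β t
    · exact ⟨t, fun h => absurd hz h⟩
    · obtain ⟨t', h1, h2⟩ := exists_branch D.tree (t := t) (s := ν z)
        (fun h => hz (h ▸ hν z))
      exact ⟨t', fun _ => ⟨h1, hz, h2⟩⟩
  choose nb hnb using hnb
  let Z : Finset X := (insert u (nbr φ (D.β t))).filter fun z => z ∉ D.β t
  have hcover : ∀ w : List (ι × Bool), φ (FreeGroup.mk w) • u ∈ D.β t ∨
      ∃ z ∈ Z, φ (FreeGroup.mk w) • u ∈ pc (nb z) := by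
    intro w
    induction w with
    | nil =>
      rw [mk_nil, one_smul]
      by_cases h : u ∈ D.β t
      · exact Or.inl h
      · exact Or.inr ⟨u, Finset.mem_filter.2 ⟨Finset.mem_insert_self _ _, h⟩, (hnb u h).2⟩
    | cons l w ih =>
      rw [mk_cons, mul_smul]
      by_cases h : gen φ l • φ (FreeGroup.mk w) • u ∈ D.β t
      · exact Or.inl h
      · rcases ih with h1 | ⟨z, hz, h1⟩
        · exact Or.inr ⟨_, Finset.mem_filter.2
            ⟨Finset.mem_insert_of_mem (mem_nbr φ h1 l), h⟩, (hnb _ h).2⟩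
        · exact Or.inr ⟨z, hz, hclosed _ _ l h1 h⟩
  have hZ : Z.card ≤ Fintype.card (ι × Bool) * k + 1 := by
    refine (Finset.card_filter_le _ _).trans ((Finset.card_insert_le _ _).trans ?_)
    exact Nat.succ_le_succ ((card_nbr φ _).trans (Nat.mul_le_mul_left _ (D.card t)))
  have hex : ∃ z ∈ Z, (n : ℕ∞) < (C ∩ pc (nb z)).encard := by
    by_contra hcon
    push Not at hcon
    have h1 := encard_biUnion_le Z (fun z => C ∩ pc (nb z)) n hcon
    have h2 : C ⊆ (D.β t : Set X) ∪ ⋃ z ∈ Z, C ∩ pc (nb z) := by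
      intro x hx
      obtain ⟨g, rfl⟩ := hC hx
      obtain ⟨f, rfl⟩ := hφ g
      have := hcover f.toWord
      rw [FreeGroup.mk_toWord] at this
      rcases this with h | ⟨z, hz, h⟩
      · exact Or.inl h
      · exact Or.inr (Set.mem_biUnion hz ⟨hx, h⟩)
    have h3 := (Set.encard_le_encard h2).trans (Set.encard_union_le _ _)
    rw [Set.encard_coe_eq_coe_finsetCard] at h3
    have h4 : C.encard ≤ (((D.β t).card + Z.card * n : ℕ) : ℕ∞) := by
      refine h3.trans ?_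
      rw [Nat.cast_add]
      exact add_le_add le_rfl h1
    have h5 : (D.β t).card + Z.card * n ≤ k + (Fintype.card (ι × Bool) * k + 1) * n :=
      add_le_add (D.card t) (Nat.mul_le_mul_right _ hZ)
    exact absurd (h4.trans (Nat.cast_le.2 h5)) (not_le.2 hbig)
  obtain ⟨z, hz, hz'⟩ := hex
  have hz2 := (hnb z (Finset.mem_filter.1 hz).2).1
  refine ⟨C ∩ pc (nb z), Set.inter_subset_left, ⟨(W.filter fun w =>
    (D.T.deleteEdges {s(t, nb z)}).Reachable (nb z) (ν w)) ∪ nbr φ (D.β t), ?_, ?_⟩, hz'⟩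
  · refine (Finset.card_union_le _ _).trans (add_le_add ?_
      ((card_nbr φ _).trans (Nat.mul_le_mul_left _ (D.card t))))
    have := ht _ hz2
    omega
  · intro x hx l hl
    by_cases h1 : gen φ l • x ∈ C
    · by_cases h2 : gen φ l • x ∈ D.β t
      · exact Finset.mem_union_right _ (mem_nbr' φ h2)
      · exact absurd ⟨h1, hclosed _ _ l hx.2 h2⟩ hl
    · exact Finset.mem_union_left _ (Finset.mem_filter.2 ⟨hW' x hx.1 l h1, hx.2.2⟩)

/-- Size loss of one shrinking step. -/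
def F1 (d k n : ℕ) : ℕ := k + (d * k + 1) * n

theorem reduce (D : TD φ X k V) (hφ : Function.Surjective φ) (u : X) (n j : ℕ) :
    ∀ (C : Set X), C ⊆ MulAction.orbit G u → ∀ a, a ≤ 2 * (Fintype.card (ι × Bool) * k) + j →
      Cut φ C a → (((F1 (Fintype.card (ι × Bool)) k)^[j] n : ℕ) : ℕ∞) < C.encard →
      ∃ C' ⊆ C, Cut φ C' (2 * (Fintype.card (ι × Bool) * k)) ∧ (n : ℕ∞) < C'.encard := by
  induction j with
  | zero =>
    rintro C - a ha ⟨W, hW, hW'⟩ hbig
    exact ⟨C, subset_rfl, ⟨W, hW.trans ha, hW'⟩, hbig⟩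
  | succ j ih =>
    intro C hC a ha hcut hbig
    rw [Function.iterate_succ_apply'] at hbig
    obtain ⟨C1, h1, h2, h3⟩ := shrink D hφ u C hC a _ hcut hbig
    obtain ⟨C2, h4, h5⟩ := ih C1 (h1.trans hC) _ (by omega) h2 h3
    exact ⟨C2, h4.trans h1, h5⟩

theorem subset_union_sdiff' {X : Type*} (C W : Set X) : C ⊆ W ∪ C \ W := by
  intro x hx
  by_cases h : x ∈ W
  · exact Or.inl h
  · exact Or.inr ⟨hx, h⟩

/-- Size loss of one round. -/
def F2 (d k n : ℕ) : ℕ := 2 * (d * k) + (F1 d k)^[d * (2 * (d * k))] n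

theorem round (D : TD φ X k V) (hφ : Function.Surjective φ) (u : X) (n : ℕ) (C : Set X)
    (hC : C ⊆ MulAction.orbit G u) (hcut : Cut φ C (2 * (Fintype.card (ι × Bool) * k)))
    (hbig : ((F2 (Fintype.card (ι × Bool)) k n : ℕ) : ℕ∞) < C.encard) :
    ∃ C' ⊆ C, Cut φ C' (2 * (Fintype.card (ι × Bool) * k)) ∧ (n : ℕ∞) < C'.encard ∧
      ∀ x ∈ C', ∀ l, gen φ l • x ∈ C := by
  obtain ⟨W, hW, hW'⟩ := hcut
  have h1 : Cut φ (C \ W) (Fintype.card (ι × Bool) * (2 * (Fintype.card (ι × Bool) * k))) := by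
    refine ⟨nbr φ W, (card_nbr φ W).trans (Nat.mul_le_mul_left _ hW), ?_⟩
    intro x hx l hl
    apply mem_nbr' φ (l := l)
    by_contra h
    exact hl ⟨by_contra fun h2 => hx.2 (hW' x hx.1 l h2), h⟩
  obtain ⟨C', h2, h3, h4⟩ := reduce D hφ u n _ (C \ W) (Set.sdiff_subset.trans hC) _
    (Nat.le_add_left _ _) h1 (by
      by_contra hcon
      have h5 : C.encard ≤ (W : Set X).encard + (C \ W).encard :=
        (Set.encard_le_encard (subset_union_sdiff' C W)).trans (Set.encard_union_le _ _)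
      rw [Set.encard_coe_eq_coe_finsetCard] at h5
      refine absurd (h5.trans (add_le_add (Nat.cast_le.2 hW) (not_lt.1 hcon))) (not_le.2 ?_)
      rw [← Nat.cast_add]
      exact hbig)
  refine ⟨C', h2.trans Set.sdiff_subset, h3, h4, fun x hx l => ?_⟩
  by_contra h
  exact (h2 hx).2 (hW' x (h2 hx).1 l h)

theorem rounds (D : TD φ X k V) (hφ : Function.Surjective φ) (u : X) (n r : ℕ) :
    ∀ C : Set X, C ⊆ MulAction.orbit G u → Cut φ C (2 * (Fintype.card (ι × Bool) * k)) →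
    (((F2 (Fintype.card (ι × Bool)) k)^[r] n : ℕ) : ℕ∞) < C.encard →
    ∃ C' ⊆ C, Cut φ C' (2 * (Fintype.card (ι × Bool) * k)) ∧ (n : ℕ∞) < C'.encard ∧
      ∀ x ∈ C', ∀ w : List (ι × Bool), w.length ≤ r → φ (FreeGroup.mk w) • x ∈ C := by
  induction r with
  | zero =>
    intro C _ hcut hbig
    refine ⟨C, subset_rfl, hcut, hbig, fun x hx w hw => ?_⟩
    rw [List.length_eq_zero_iff.1 (Nat.le_zero.1 hw), mk_nil, one_smul]
    exact hx
  | succ r ih =>
    intro C hC hcut hbig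
    rw [Function.iterate_succ_apply'] at hbig
    obtain ⟨C1, h1, h2, h3, h4⟩ := round D hφ u _ C hC hcut hbig
    obtain ⟨C2, h5, h6, h7, h8⟩ := ih C1 (h1.trans hC) h2 h3
    refine ⟨C2, h5.trans h1, h6, h7, fun x hx w hw => ?_⟩
    cases w with
    | nil => rw [mk_nil, one_smul]; exact h1 (h5 hx)
    | cons l w =>
      rw [mk_cons, mul_smul]
      exact h4 _ (h8 x hx w (by simpa using hw)) l

theorem long_chain (D : TD φ X k V) (hφ : Function.Surjective φ) (u : X) (r m : ℕ) :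
    ∀ C : Set X, C ⊆ MulAction.orbit G u → Cut φ C (2 * (Fintype.card (ι × Bool) * k)) →
    ((((F2 (Fintype.card (ι × Bool)) k)^[r])^[m] 0 : ℕ) : ℕ∞) < C.encard →
    ∃ Cs : ℕ → Set X, Cs 0 = C ∧ (∀ i ≤ m, Cut φ (Cs i) (2 * (Fintype.card (ι × Bool) * k))) ∧
      (∃ x ∈ Cs m, x ∈ MulAction.orbit G u) ∧ ∀ i < m, ∀ x ∈ Cs (i + 1),
        ∀ w : List (ι × Bool), w.length ≤ r → φ (FreeGroup.mk w) • x ∈ Cs i := by
  induction m with
  | zero =>
    intro C hC hcut hbig
    obtain ⟨x, hx⟩ := Set.encard_pos.1 (by simpa using hbig)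
    exact ⟨fun _ => C, rfl, fun _ _ => hcut, ⟨x, hx, hC hx⟩, by simp⟩
  | succ m ih =>
    intro C hC hcut hbig
    rw [Function.iterate_succ_apply'] at hbig
    obtain ⟨C1, h1, h2, h3, h4⟩ := rounds D hφ u _ r C hC hcut hbig
    obtain ⟨Cs, h5, h6, h7, h8⟩ := ih C1 (h1.trans hC) h2 h3
    refine ⟨fun i => Nat.casesOn i C Cs, rfl, ?_, h7, ?_⟩
    · intro i hi
      cases i with
      | zero => exact hcut
      | succ i => exact h6 i (by omega)
    · intro i hi
      cases i with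
      | zero => intro x hx; exact h4 x (h5 ▸ hx)
      | succ i => exact h8 i (by omega)

theorem tw_bound [Group.IsFinitelyPresented G] (φ : FreeGroup ι →* G)
    (hφ : Function.Surjective φ) (hper : ∀ g : G, IsOfFinOrder g) (k : ℕ) :
    ∃ M : ℕ, ∀ (X : Type u) [MulAction G X] (V : Type u) (_ : TD φ X k V) (u : X),
      (MulAction.orbit G u).encard ≤ M := by
  obtain ⟨S, hSf, hS⟩ := pres_of_gen φ hφ
  set d := Fintype.card (ι × Bool) with hd
  obtain ⟨N, R, h⟩ := chain'.{u} φ hφ S hS hSf hper (d * (2 * (d * k)))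
  refine ⟨1 + (F1 d k)^[d] (((F2 d k)^[R])^[N + 1] 0), fun X _ V D u => ?_⟩
  by_contra hcon
  have h1 : Cut φ (MulAction.orbit G u \ {u}) d := by
    refine ⟨nbr φ {u}, (card_nbr φ ({u} : Finset X)).trans (by rw [Finset.card_singleton, mul_one]), fun x hx l hl => ?_⟩
    apply mem_nbr' φ (l := l)
    rw [Finset.mem_singleton]
    by_contra h2
    refine hl ⟨?_, h2⟩
    obtain ⟨g, rfl⟩ := hx.1
    exact ⟨gen φ l * g, mul_smul _ _ _⟩
  obtain ⟨C, h2, h3, h4⟩ := reduce D hφ u (((F2 d k)^[R])^[N + 1] 0) d _ Set.sdiff_subset d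
    (Nat.le_add_left _ _) h1 (by
      by_contra h5
      apply hcon
      have h6 := (Set.encard_le_encard (subset_union_sdiff' (MulAction.orbit G u) {u})).trans
        (Set.encard_union_le _ _)
      rw [Set.encard_singleton] at h6
      refine h6.trans ?_
      rw [Nat.cast_add, Nat.cast_one]
      exact add_le_add le_rfl (not_lt.1 h5))
  obtain ⟨Cs, h5, h6, ⟨x, hx, g, rfl⟩, h8⟩ :=
    long_chain D hφ u R (N + 1) C (h2.trans Set.sdiff_subset) h3 h4
  refine h X (fun i => (Cs i)ᶜ) ?_ ?_ u ?_ g hx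
  · intro i hi
    obtain ⟨W, hW, hW'⟩ := h6 i (by omega)
    have h9 : {x ∈ (Cs i)ᶜ | ∃ l, gen φ l • x ∉ (Cs i)ᶜ} ⊆ (nbr φ W : Set X) := by
      rintro y ⟨hy, l, hl⟩
      refine mem_nbr' φ (l := l) (hW' _ (not_not.1 hl) (linv l) ?_)
      rw [gen_linv, inv_smul_smul]
      exact hy
    refine (Set.encard_le_encard h9).trans ?_
    rw [Set.encard_coe_eq_coe_finsetCard]
    exact Nat.cast_le.2 ((card_nbr φ W).trans (Nat.mul_le_mul_left _ hW))
  · intro i hi y hy w hw hmem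
    have := h8 i (by omega) _ hmem (FreeGroup.invRev w) (by simpa using hw)
    rw [mk_invRev_smul] at this
    exact hy this
  · change u ∉ Cs 0
    rw [h5]
    exact fun hu => (h2 hu).2 rfl

end P192
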